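import Vale.Agent.P323.H436.Chart

/-!
# `AmData`: the amalgams of one stage, in the form of class `Tw`
-/

namespace Vale.Agent.P323.Z

open CategoryTheory

/-- The amalgams of one stage. -/
structure AmData (D : Type 1) [Category.{1} D] [TwBase D] (i : Ordinal.{0}) where
  am : ∀ {z x y : D} (l : z ⟶ x) (r : z ⟶ y), Mem i l → Mem i r → D
  jl : ∀ {z x y : D} (l : z ⟶ x) (r : z ⟶ y) (hl : Mem i l) (hr : Mem i r), x ⟶ am l r hl hr
  jr : ∀ {z x y : D} (l : z ⟶ x) (r : z ⟶ y) (hl : Mem i l) (hr : Mem i r), y ⟶ am l r hl hr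
  K0 : ∀ {z x y : D} (l : z ⟶ x) (r : z ⟶ y) (hl : Mem i l) (hr : Mem i r),
    l ≫ jl l r hl hr = r ≫ jr l r hl hr
  K1 : ∀ {z x y : D} (l : z ⟶ x) (r : z ⟶ y) (hl : Mem i l) (hr : Mem i r),
    IsPB l r (jl l r hl hr) (jr l r hl hr)
  K2 : ∀ {z x y z' x' y' : D} (l : z ⟶ x) (r : z ⟶ y) (l' : z' ⟶ x')
    (r' : z' ⟶ y') (hl : Mem i l) (hr : Mem i r) (hl' : Mem i l') (hr' : Mem i r')
    (p : x' ⟶ x) (m : z' ⟶ z) (q : y' ⟶ y), Mem i p → Mem i m → Mem i q →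
    IsPB l' m p l → IsPB r' m q r →
    ∃ φ : am l' r' hl' hr' ⟶ am l r hl hr,
      IsPB (jl l' r' hl' hr') p φ (jl l r hl hr) ∧
      IsPB (jr l' r' hl' hr') q φ (jr l r hl hr)

end Vale.Agent.P323.Z
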