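import Vale.Agent.P323.Z.Tower
import Vale.Agent.P323.Z.Step

/-!
# Charts: a typed `Step` realised inside the final category `D` at stages `i`, `i + 1`
-/

namespace Vale.Agent.P323.Z

open CategoryTheory

attribute [instance] Step.cat

/-- A typed one-step extension `Φ : S ⥤ T` whose target is identified with stage `i + 1` of `D`
and whose source is identified with stage `i` of `D`. -/
structure Chart (D : Type 1) [Category.{1} D] [TwBase D] (i : Ordinal.{0}) where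
  S : Type
  [catS : Category.{0} S]
  a : ℕ → S
  ι : ∀ n, a n ⟶ a (n + 1)
  st : Step S a ι
  F : st.T ⥤ D
  F_inj : Function.Injective F.obj
  F_faith : ∀ {x y : st.T} {f g : x ⟶ y}, F.map f = F.map g → f = g
  F_mem : ∀ {x y : st.T} (f : x ⟶ y), Mem (i + 1) (F.map f)
  F_obj : ∀ x : D, Mem (i + 1) (𝟙 x) → ∃ x', F.obj x' = x
  F_full : ∀ {x y : st.T} (g : F.obj x ⟶ F.obj y), Mem (i + 1) g → ∃ f, F.map f = g
  F_pb : ∀ {z x y b : st.T} {p : z ⟶ x} {q : z ⟶ y} {f : x ⟶ b} {g : y ⟶ b}, IsPB p q f g →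
    IsPB (F.map p) (F.map q) (F.map f) (F.map g)
  G_mem : ∀ {x y : S} (f : x ⟶ y), Mem i (F.map (st.Φ.map f))
  G_obj : ∀ x : D, Mem i (𝟙 x) → ∃ x', F.obj (st.Φ.obj x') = x
  G_full : ∀ {x y : S} (g : F.obj (st.Φ.obj x) ⟶ F.obj (st.Φ.obj y)), Mem i g →
    ∃ f, F.map (st.Φ.map f) = g
  e : ∀ n, (TwBase.a n : D) ≅ F.obj (st.Φ.obj (a n))
  e_hom : ∀ n, Mem i (e n).hom
  e_inv : ∀ n, Mem i (e n).inv
  e_nat : ∀ n, (TwBase.ι n : (TwBase.a n : D) ⟶ _) ≫ (e (n + 1)).hom =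
    (e n).hom ≫ F.map (st.Φ.map (ι n))

attribute [instance] Chart.catS

namespace Chart

variable {D : Type 1} [Category.{1} D] [TwBase D] {i : Ordinal.{0}} (C : Chart D i)

/-- the inclusion of stage `i` -/
def G : C.S ⥤ D := C.st.Φ ⋙ C.F

@[simp] theorem G_obj' (x : C.S) : C.G.obj x = C.F.obj (C.st.Φ.obj x) := rfl
@[simp] theorem G_map' {x y : C.S} (f : x ⟶ y) : C.G.map f = C.F.map (C.st.Φ.map f) := rfl

theorem G_faith {x y : C.S} {f g : x ⟶ y} (h : C.F.map (C.st.Φ.map f) = C.F.map (C.st.Φ.map g)) :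
    f = g := C.st.faithful (C.F_faith h)

theorem G_pb {z x y b : C.S} {p : z ⟶ x} {q : z ⟶ y} {f : x ⟶ b} {g : y ⟶ b}
    (h : IsPB p q f g) : IsPB (C.F.map (C.st.Φ.map p)) (C.F.map (C.st.Φ.map q))
      (C.F.map (C.st.Φ.map f)) (C.F.map (C.st.Φ.map g)) := C.F_pb (C.st.pb h)

theorem thru_map {x y z : C.st.T} {f : x ⟶ z} {g : y ⟶ z} (h : Thru f g) :
    Thru (C.F.map f) (C.F.map g) := by
  obtain ⟨k, rfl⟩ := h
  exact ⟨C.F.map k, by rw [C.F.map_comp]⟩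

theorem thru_map' {x y z : C.S} {f : x ⟶ z} {g : y ⟶ z} (h : Thru f g) :
    Thru (C.st.Φ.map f) (C.st.Φ.map g) := by
  obtain ⟨k, rfl⟩ := h
  exact ⟨C.st.Φ.map k, by rw [C.st.Φ.map_comp]⟩

/-- every common point of two maps of stage `i + 1` factors through a common point in `T` -/
theorem point {x y b : C.st.T} (f : x ⟶ b) (g : y ⟶ b) {e : D} (u : e ⟶ C.F.obj x)
    (v : e ⟶ C.F.obj y) (h : u ≫ C.F.map f = v ≫ C.F.map g) :
    ∃ (z : C.st.T) (p : z ⟶ x) (q : z ⟶ y) (w : e ⟶ C.F.obj z), p ≫ f = q ≫ g ∧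
      w ≫ C.F.map p = u ∧ w ≫ C.F.map q = v := by
  obtain ⟨z, p, q, hpq⟩ := C.st.stage.pb f g
  obtain ⟨w, hw⟩ := (C.F_pb hpq).2 u v h
  exact ⟨z, p, q, w, hpq.1, hw⟩

end Chart

end Vale.Agent.P323.Z
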