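import Vale.Agent.P323.H436.Chart

/-!
# Local to final transfer: the fields `nd`, `gen`, `G1`, `G3`-`G6` of `Tw` from a chart
-/

namespace Vale.Agent.P323.Z

open CategoryTheory

variable {D : Type 1} [Category.{1} D] [TwBase D] {i : Ordinal.{0}}

theorem mem_succ {x y : D} {f : x ⟶ y} (h : Mem i f) : Mem (i + 1) f :=
  TwBase.mem_mono (Order.le_succ i |>.trans_eq (by rfl)) h

namespace Chart

variable (C : Chart D i)

/-- transfer of the data of a new morphism -/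
noncomputable def ndOf {d b : C.S} (x : C.st.Φ.obj d ⟶ C.st.Φ.obj b) (N : SND C.st.Φ C.a C.ι x) :
    ND D i (C.F.map x) where
  n := N.n
  A := (C.e (N.n + 1)).hom ≫ C.F.map (C.st.Φ.map N.A)
  P := C.F.obj (C.st.Φ.obj N.P)
  π := C.F.map (C.st.Φ.map N.π)
  π' := C.F.map (C.st.Φ.map N.π') ≫ (C.e N.n).inv
  hA := TwBase.mem_comp (C.e_hom _) (C.G_mem _)
  hπ := C.G_mem _
  hπ' := TwBase.mem_comp (C.G_mem _) (C.e_inv _)
  eq := by
    rw [← C.F.map_comp, N.eq]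
    simp only [Functor.map_comp, Category.assoc]
    rw [reassoc_of% (C.e_nat N.n), Iso.inv_hom_id_assoc]
  N0 := by
    intro e u hu
    obtain ⟨e, rfl⟩ := C.G_obj e (TwBase.mem_src hu)
    obtain ⟨u, rfl⟩ := C.F_full u (TwBase.mem_div (mem_succ hu) (C.F_mem x))
    rw [← C.F.map_comp] at hu
    obtain ⟨y, hy⟩ := C.G_full _ hu
    exact C.thru_map (N.N0 u y (C.F_faith hy).symm)
  N1 := by
    intro e y hy
    obtain ⟨e, rfl⟩ := C.G_obj e (TwBase.mem_src hy)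
    obtain ⟨y, rfl⟩ := C.G_full y hy
    rcases N.N1 y with ⟨h1, h2⟩ | h
    · exact Or.inl ⟨Thru.comp_left _ (C.thru_map (C.thru_map' h1)), C.thru_map h2⟩
    · refine Or.inr fun u v huv => ?_
      obtain ⟨z, p, q, w, hpq, rfl, rfl⟩ := C.point x (C.st.Φ.map y) u v huv
      exact Thru.comp_left _ (C.thru_map (h p q hpq))
  N2 := by
    rintro ⟨h, hh⟩
    have hm : Mem i h := TwBase.mem_div (g := C.F.map (C.st.Φ.map N.π)) (by
      rw [hh, ← C.F.map_id, ← C.st.Φ.map_id]; exact C.G_mem _) (C.G_mem _)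
    obtain ⟨h, rfl⟩ := C.G_full h hm
    refine N.N2 ⟨h, C.G_faith ?_⟩
    rw [Functor.map_comp, Functor.map_comp, hh, CategoryTheory.Functor.map_id,
      CategoryTheory.Functor.map_id]

include C in
theorem nd {d b : D} (x : d ⟶ b) (hb : Mem i (𝟙 b)) (hx : Mem (i + 1) x) (hn : ¬ Mem i x) :
    Nonempty (ND D i x) := by
  obtain ⟨b, rfl⟩ := C.G_obj b hb
  obtain ⟨d, rfl⟩ := C.F_obj d (TwBase.mem_src hx)
  obtain ⟨x, rfl⟩ := C.F_full x hx
  obtain ⟨d, rfl⟩ := C.st.src x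
  rcases C.st.nd x with ⟨y, rfl⟩ | hN
  · exact absurd (C.G_mem y) hn
  · exact hN.map (C.ndOf x)

/-- typed pseudogroup of a pseudogroup of stage `i` -/
def spg {b : C.S} (E : PG D i (C.F.obj (C.st.Φ.obj b))) : SPG C.S b where
  rel s t := E.rel (C.F.map (C.st.Φ.map s)) (C.F.map (C.st.Φ.map t))
  one := by
    rw [CategoryTheory.Functor.map_id, CategoryTheory.Functor.map_id]; exact E.one
  symm h := E.symm h
  comp h h' hpb := by
    rw [Functor.map_comp, Functor.map_comp, Functor.map_comp, Functor.map_comp]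
    exact E.comp h h' (C.G_pb hpb) (C.G_mem _) (C.G_mem _)
  up h := by
    rw [Functor.map_comp, Functor.map_comp, Functor.map_comp, Functor.map_comp] at h
    exact E.up (C.G_mem _) (C.G_mem _) (C.G_mem _) h

end Chart

/-- The properties of a generator of the task `τ`. -/
structure GenProp (τ : Task D i) (g : τ.c ⟶ τ.b) : Prop where
  mem : Mem (i + 1) g
  α : τ.α ≫ g = TwBase.ι τ.n ≫ τ.γ
  inv : ∀ {d : D} {s t : d ⟶ τ.b}, τ.E.rel s t →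
    ∃ v : τ.c ⟶ d, v ≫ s = g ∧ v ≫ t = g
  G1 : ∀ {B : D} (A : B ⟶ τ.b), τ.E.rel A A →
    ∀ (fA : τ.c ⟶ B) (γA : (TwBase.a (τ.n + 1) : D) ⟶ B), fA ≫ A = g → γA ≫ A = τ.γ →
    ∀ {b' e : D} (y : B ⟶ b') (y' : e ⟶ b'), Mem i y → Mem i y' →
    ∀ {f : D} (t : f ⟶ τ.c) (s : f ⟶ e), t ≫ fA ≫ y = s ≫ y' →
      Thru t τ.α ∨ Thru (γA ≫ y) y'
  G3 : ∀ {d : D} (p : d ⟶ τ.b), Mem (i + 1) p →
    ∀ (N : ND D i p) (h : (TwBase.a (τ.n + 1) : D) ⟶ d), h ≫ p = τ.γ →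
    ∀ {f : D} (g' : f ⟶ d) (s : f ⟶ τ.c), g' ≫ p = s ≫ g → Thru g' N.π ∨ Thru s τ.α
  G4 : ∀ {d : D} (p : d ⟶ τ.b), Mem i p →
    (∃ (B : D) (A : B ⟶ τ.b) (u : B ⟶ d), Mem i u ∧ τ.E.rel A (u ≫ p)) ∨
    ∀ {f : D} (g' : f ⟶ d) (s : f ⟶ τ.c), g' ≫ p = s ≫ g → Thru s τ.α
  G5 : ∀ {B B' d : D} (A : B ⟶ τ.b) (A' : B' ⟶ τ.b),
    τ.E.rel A A → τ.E.rel A' A' →
    ∀ (fA : τ.c ⟶ B) (fA' : τ.c ⟶ B'), fA ≫ A = g → fA' ≫ A' = g →
    ∀ (u : B ⟶ d) (u' : B' ⟶ d), Mem i u → Mem i u' →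
    ∀ {f : D} (s t : f ⟶ τ.c), s ≫ fA ≫ u = t ≫ fA' ≫ u' →
      Thru s τ.α ∨ Thru t τ.α ∨
        (s = t ∧ ∃ (K : D) (x : K ⟶ B) (y : K ⟶ B'), Mem i x ∧ Mem i y ∧
          τ.E.rel (x ≫ A) (y ≫ A') ∧ x ≫ u = y ≫ u')
  G6 : ∀ {f : D} (s : f ⟶ τ.c), Mem i (s ≫ g) → Thru s τ.α

namespace Chart

variable (C : Chart D i)

include C in
theorem exists_gen (τ : Task D i) : ∃ g : τ.c ⟶ τ.b, GenProp τ g := by
  obtain ⟨n, c, α, b, E, γ, hα, hγ, inv⟩ := τ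
  obtain ⟨c, rfl⟩ := C.G_obj c (TwBase.mem_tgt hα)
  obtain ⟨b, rfl⟩ := C.G_obj b (TwBase.mem_tgt hγ)
  obtain ⟨α', hα'⟩ := C.G_full ((C.e n).inv ≫ α) (TwBase.mem_comp (C.e_inv _) hα)
  obtain ⟨γ', hγ'⟩ := C.G_full ((C.e (n + 1)).inv ≫ γ) (TwBase.mem_comp (C.e_inv _) hγ)
  have hα2 : α = (C.e n).hom ≫ C.F.map (C.st.Φ.map α') := by rw [hα', Iso.hom_inv_id_assoc]
  have hγ2 : γ = (C.e (n + 1)).hom ≫ C.F.map (C.st.Φ.map γ') := by
    rw [hγ', Iso.hom_inv_id_assoc]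
  have hinv : ∀ {d : C.S} {s t : d ⟶ b}, (C.spg E).rel s t →
      ∃ v : C.a (n + 1) ⟶ d, v ≫ s = γ' ∧ v ≫ t = γ' := by
    intro d s t hst
    obtain ⟨v, hv1, hv2⟩ := inv hst
    have hvm : Mem i v := TwBase.mem_div (by rw [hv1]; exact hγ) (C.G_mem s)
    obtain ⟨v', hv'⟩ := C.G_full ((C.e (n + 1)).inv ≫ v) (TwBase.mem_comp (C.e_inv _) hvm)
    refine ⟨v', C.G_faith ?_, C.G_faith ?_⟩
    · rw [Functor.map_comp, Functor.map_comp, hv', Category.assoc, hv1, hγ']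
    · rw [Functor.map_comp, Functor.map_comp, hv', Category.assoc, hv2, hγ']
  set τ' : STask C.S C.a C.ι := ⟨n, c, α', b, C.spg E, γ', hinv⟩ with hτ'
  have thα : ∀ {x : D} {t : x ⟶ C.F.obj (C.st.Φ.obj c)},
      Thru t (C.F.map (C.st.Φ.map α')) → Thru t α := by
    rintro x t ⟨k, rfl⟩
    exact ⟨k ≫ (C.e n).inv, by rw [Category.assoc, ← hα']⟩
  refine ⟨C.F.map (C.st.gen τ'), ?_⟩
  constructor
  · exact C.F_mem _
  · -- α
    show α ≫ C.F.map (C.st.gen τ') = TwBase.ι n ≫ γ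
    rw [hα2, hγ2, Category.assoc, ← C.F.map_comp]
    have : C.st.Φ.map α' ≫ C.st.gen τ' = C.st.Φ.map (C.ι n ≫ γ') := C.st.gen_α τ'
    rw [this, reassoc_of% (C.e_nat n), Functor.map_comp, Functor.map_comp]
  · -- inv
    intro d s t hst
    have hs := (E.mem hst).1
    have ht := (E.mem hst).2
    obtain ⟨d, rfl⟩ := C.G_obj d (TwBase.mem_src hs)
    obtain ⟨s, rfl⟩ := C.G_full s hs
    obtain ⟨t, rfl⟩ := C.G_full t ht
    obtain ⟨v, hv1, hv2⟩ := C.st.gen_inv τ' (s := s) (t := t) hst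
    exact ⟨C.F.map v, by rw [← C.F.map_comp, hv1], by rw [← C.F.map_comp, hv2]⟩
  · -- G1
    intro B A hAA fA γA hfA hγA b' e y y' hy hy' f t s h
    have hA := (E.mem hAA).1
    obtain ⟨B, rfl⟩ := C.G_obj B (TwBase.mem_src hA)
    obtain ⟨A, rfl⟩ := C.G_full A hA
    obtain ⟨b', rfl⟩ := C.G_obj b' (TwBase.mem_tgt hy)
    obtain ⟨y, rfl⟩ := C.G_full y hy
    obtain ⟨e, rfl⟩ := C.G_obj e (TwBase.mem_src hy')
    obtain ⟨y', rfl⟩ := C.G_full y' hy'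
    obtain ⟨fA, rfl⟩ := C.F_full fA (TwBase.mem_div (by rw [hfA]; exact C.F_mem _) (C.F_mem _))
    obtain ⟨γA', hγA'⟩ := C.G_full ((C.e (n + 1)).inv ≫ γA) (TwBase.mem_comp (C.e_inv _)
      (TwBase.mem_div (by rw [hγA]; exact hγ) hA))
    obtain ⟨z, p, q, w, hpq, rfl, rfl⟩ := C.point (fA ≫ C.st.Φ.map y) (C.st.Φ.map y') t s
      (by rw [C.F.map_comp]; exact h)
    rcases C.st.G1 τ' A hAA fA γA' (C.F_faith (by rw [C.F.map_comp, hfA])) (C.G_faith (by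
      rw [Functor.map_comp, Functor.map_comp, hγA', Category.assoc, hγA]; exact hγ'.symm))
      y y' p q hpq with h1 | ⟨k, hk⟩
    · exact Or.inl (thα (Thru.comp_left w (C.thru_map h1)))
    · refine Or.inr ⟨(C.e (n + 1)).hom ≫ C.F.map (C.st.Φ.map k), ?_⟩
      rw [Category.assoc, ← C.F.map_comp, ← C.st.Φ.map_comp, hk, Functor.map_comp,
        Functor.map_comp, hγA', Category.assoc, Iso.hom_inv_id_assoc]
  · -- G3
    intro d p hp N h hh f g' s hgs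
    obtain ⟨d, rfl⟩ := C.F_obj d (TwBase.mem_src hp)
    obtain ⟨p, rfl⟩ := C.F_full p hp
    obtain ⟨d, rfl⟩ := C.st.src p
    rcases C.st.nd p with ⟨y, rfl⟩ | hN'
    · exact absurd (N.N0 (𝟙 _) (by rw [Category.id_comp]; exact C.G_mem y)) N.N2
    · obtain ⟨N'⟩ := hN'
      have hhm : Mem (i + 1) h := TwBase.mem_div (by rw [hh]; exact mem_succ hγ) hp
      obtain ⟨h', hh'⟩ := C.F_full ((C.e (n + 1)).inv ≫ h)
        (TwBase.mem_comp (mem_succ (C.e_inv _)) hhm)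
      obtain ⟨z, p1, q1, w, hpq, rfl, rfl⟩ := C.point p (C.st.gen τ') g' s hgs
      rcases C.st.G3 τ' p N' h' (C.F_faith (by
        rw [C.F.map_comp, hh', Category.assoc, hh]; exact hγ'.symm)) p1 q1 hpq with h1 | h1
      · refine Or.inl (Thru.comp_left w ((C.thru_map h1).trans (N.N0 _ ?_)))
        rw [← C.F.map_comp, N'.eq]
        exact C.G_mem _
      · exact Or.inr (thα (Thru.comp_left w (C.thru_map h1)))
  · -- G4
    intro d p hp
    obtain ⟨d, rfl⟩ := C.G_obj d (TwBase.mem_src hp)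
    obtain ⟨p, rfl⟩ := C.G_full p hp
    rcases C.st.G4 τ' p with ⟨B, A, u, hu⟩ | h1
    · refine Or.inl ⟨_, C.F.map (C.st.Φ.map A), C.F.map (C.st.Φ.map u), C.G_mem _, ?_⟩
      have : E.rel (C.F.map (C.st.Φ.map A)) (C.F.map (C.st.Φ.map (u ≫ p))) := hu
      rw [Functor.map_comp, Functor.map_comp] at this
      exact this
    · refine Or.inr fun {f} g' s hgs => ?_
      obtain ⟨z, p1, q1, w, hpq, rfl, rfl⟩ := C.point (C.st.Φ.map p) (C.st.gen τ') g' s hgs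
      exact thα (Thru.comp_left w (C.thru_map (h1 p1 q1 hpq)))
  · -- G5
    intro B B' d A A' hAA hAA' fA fA' hfA hfA' u u' hu hu' f s t hst
    have hA := (E.mem hAA).1
    have hA' := (E.mem hAA').1
    obtain ⟨B, rfl⟩ := C.G_obj B (TwBase.mem_src hA)
    obtain ⟨A, rfl⟩ := C.G_full A hA
    obtain ⟨B', rfl⟩ := C.G_obj B' (TwBase.mem_src hA')
    obtain ⟨A', rfl⟩ := C.G_full A' hA'
    obtain ⟨d, rfl⟩ := C.G_obj d (TwBase.mem_tgt hu)
    obtain ⟨u, rfl⟩ := C.G_full u hu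
    obtain ⟨u', rfl⟩ := C.G_full u' hu'
    obtain ⟨fA, rfl⟩ := C.F_full fA (TwBase.mem_div (by rw [hfA]; exact C.F_mem _) (C.F_mem _))
    obtain ⟨fA', rfl⟩ := C.F_full fA'
      (TwBase.mem_div (by rw [hfA']; exact C.F_mem _) (C.F_mem _))
    obtain ⟨z, p, q, w, hpq, rfl, rfl⟩ := C.point (fA ≫ C.st.Φ.map u) (fA' ≫ C.st.Φ.map u') s t
      (by rw [C.F.map_comp, C.F.map_comp]; exact hst)
    rcases C.st.G5 τ' A A' hAA hAA' fA fA' (C.F_faith (by rw [C.F.map_comp, hfA]))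
      (C.F_faith (by rw [C.F.map_comp, hfA'])) u u' p q hpq with h1 | h1 | ⟨h1, K, x, y, hxy, h2⟩
    · exact Or.inl (thα (Thru.comp_left w (C.thru_map h1)))
    · exact Or.inr (Or.inl (thα (Thru.comp_left w (C.thru_map h1))))
    · refine Or.inr (Or.inr ⟨by rw [h1], _, C.F.map (C.st.Φ.map x), C.F.map (C.st.Φ.map y),
        C.G_mem _, C.G_mem _, ?_, ?_⟩)
      · have : E.rel (C.F.map (C.st.Φ.map (x ≫ A))) (C.F.map (C.st.Φ.map (y ≫ A'))) := hxy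
        rw [Functor.map_comp, Functor.map_comp, Functor.map_comp, Functor.map_comp] at this
        exact this
      · rw [← C.F.map_comp, ← C.F.map_comp, ← C.st.Φ.map_comp, ← C.st.Φ.map_comp, h2]
  · -- G6
    intro f s hs
    obtain ⟨f, rfl⟩ := C.G_obj f (TwBase.mem_src hs)
    obtain ⟨s, rfl⟩ := C.F_full s (TwBase.mem_div (mem_succ hs) (C.F_mem _))
    rw [← C.F.map_comp] at hs
    obtain ⟨y, hy⟩ := C.G_full _ hs
    exact thα (C.thru_map (C.st.G6 τ' s y (C.F_faith hy).symm))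

end Chart

end Vale.Agent.P323.Z
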