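import Vale.Agent.P323.H436.Loc
import Vale.Agent.P323.H436.Am
import Vale.Agent.P323.H660.Raw

/-!
# Assembly of `Tw D` from charts
-/

namespace Vale.Agent.P323.Z

open CategoryTheory

variable {D : Type 1} [Category.{1} D] [TwBase D] {i : Ordinal.{0}}

theorem tw_of_gen_am
    (hnd : ∀ {i : Ordinal.{0}} {d b : D} (x : d ⟶ b), Mem i (𝟙 b) → Mem (i + 1) x → ¬ Mem i x →
      Nonempty (ND D i x))
    (hgen : ∀ {i : Ordinal.{0}} (τ : Task D i), ∃ g : τ.c ⟶ τ.b, GenProp τ g)
    (ham : ∀ i : Ordinal.{0}, Nonempty (AmData D i)) : Nonempty (Tw D) := by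
  choose gen hg using @hgen
  let A : ∀ i : Ordinal.{0}, AmData D i := fun i => (ham i).some
  exact ⟨{
    nd := hnd
    gen := gen
    gen_mem := fun τ => (hg τ).mem
    gen_α := fun τ => (hg τ).α
    gen_inv := fun τ => (hg τ).inv
    G1 := fun τ => (hg τ).G1
    G3 := fun τ => (hg τ).G3
    G4 := fun τ => (hg τ).G4
    G5 := fun τ => (hg τ).G5
    G6 := fun τ => (hg τ).G6
    am := fun i => (A i).am
    jl := fun i => (A i).jl
    jr := fun i => (A i).jr
    K0 := fun i => (A i).K0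
    K1 := fun i => (A i).K1
    K2 := fun i => (A i).K2 }⟩

theorem mem_eqToHom {x y : D} (h : x = y) (hx : Mem i (𝟙 x)) : Mem i (eqToHom h) := by
  subst h; simpa using hx

theorem mem_a (n : ℕ) : Mem i (𝟙 (TwBase.a n : D)) :=
  TwBase.mem_mono (by exact zero_le) (TwBase.mem_src (TwBase.ι_mem n))

omit [TwBase D] in
theorem heq_nat {x y x' y' : D} (hx : x' = x) (hy : y' = y) (f' : x' ⟶ y') (f : x ⟶ y)
    (h : HEq f' f) : f ≫ eqToHom hy.symm = eqToHom hx.symm ≫ f' := by
  subst hx; subst hy; cases h; simp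

/-- conversion of helper660's charts -/
def chartOf (C : H660.Chart D i) : Chart D i :=
  letI := C.cS
  { S := C.S
    a := C.a
    ι := C.ι
    st := C.st
    F := C.F
    F_inj := C.F_inj
    F_faith := C.F_faithful
    F_mem := C.F_mem
    F_obj := fun _ h => C.F_obj h
    F_full := C.F_full
    F_pb := C.F_pb
    G_mem := C.G_mem
    G_obj := fun _ h => C.G_obj h
    G_full := C.G_full
    e := fun n => eqToIso (C.a_obj n).symm
    e_hom := fun n => mem_eqToHom (C.a_obj n).symm (mem_a n)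
    e_inv := fun n => mem_eqToHom (C.a_obj n) (by rw [C.a_obj n]; exact mem_a n)
    e_nat := fun n => heq_nat (C.a_obj n) (C.a_obj (n + 1)) _ _ (C.ι_map n) }

end Vale.Agent.P323.Z
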