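import Vale.Agent.P323.H436.Transfer
import Vale.Agent.P323.H80.ChartK

/-!
# `transfer : TransferStmt`
-/

namespace Vale.Agent.P323.Z

open CategoryTheory

theorem exists_amData {D : Type 1} [Category.{1} D] [TwBase D] {i : Ordinal.{0}}
    (C : Chart D i) : Nonempty (AmData D i) :=
  ⟨{ am := C.am
     jl := C.jl
     jr := C.jr
     K0 := C.K0
     K1 := C.K1
     K2 := C.K2 }⟩

theorem tw_of_charts {D : Type 1} [Category.{1} D] [TwBase D]
    (C : ∀ i : Ordinal.{0}, Nonempty (Chart D i)) : Nonempty (Tw D) :=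
  tw_of_gen_am (fun {i} _ _ x hb hx hn => (C i).some.nd x hb hx hn)
    (fun {i} τ => (C i).some.exists_gen τ) (fun i => exists_amData (C i).some)

theorem transfer : H660.TransferStmt := by
  intro D _ _ h
  exact tw_of_charts fun i => (h i).map chartOf

end Vale.Agent.P323.Z
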